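import Mathlib

set_option linter.unusedSectionVars false
set_option linter.unusedSimpArgs false

open Finset

namespace Vale.Agent.Lib.P328

section general
variable {ι κ : Type*} [Fintype ι] [Fintype κ]

/-- same row sums and same column sums -/
def SameMargins (X Y : ι → κ → ℕ) : Prop :=
  (∀ i, ∑ j, X i j = ∑ j, Y i j) ∧ (∀ j, ∑ i, X i j = ∑ i, Y i j)

/-- `X` and `Y` have the same margins and agree outside a `2 × 2` block. -/
def Step (X Y : ι → κ → ℕ) : Prop :=
  SameMargins X Y ∧ ∃ i i' j j', ∀ a b, ¬((a = i ∨ a = i') ∧ (b = j ∨ b = j')) → X a b = Y a b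

inductive Reach : ℕ → (ι → κ → ℕ) → (ι → κ → ℕ) → Prop
  | refl (X : ι → κ → ℕ) : Reach 0 X X
  | tail {k : ℕ} {X Y Z : ι → κ → ℕ} : Reach k X Y → Step Y Z → Reach (k + 1) X Z

lemma SameMargins.symm {X Y : ι → κ → ℕ} (h : SameMargins X Y) : SameMargins Y X :=
  ⟨fun i => (h.1 i).symm, fun j => (h.2 j).symm⟩

lemma SameMargins.trans {X Y Z : ι → κ → ℕ} (h : SameMargins X Y) (h' : SameMargins Y Z) :
    SameMargins X Z :=
  ⟨fun i => (h.1 i).trans (h'.1 i), fun j => (h.2 j).trans (h'.2 j)⟩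

lemma SameMargins.rfl' (X : ι → κ → ℕ) : SameMargins X X := ⟨fun _ => rfl, fun _ => rfl⟩

lemma Step.symm {X Y : ι → κ → ℕ} (h : Step X Y) : Step Y X := by
  obtain ⟨hm, i, i', j, j', hh⟩ := h
  exact ⟨hm.symm, i, i', j, j', fun a b hab => (hh a b hab).symm⟩

lemma Reach.sameMargins {k : ℕ} {X Y : ι → κ → ℕ} (h : Reach k X Y) : SameMargins X Y := by
  induction h with
  | refl X => exact SameMargins.rfl' X
  | tail _ hs ih => exact ih.trans hs.1

lemma Reach.trans {k l : ℕ} {X Y Z : ι → κ → ℕ} (h : Reach k X Y) (h' : Reach l Y Z) :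
    Reach (k + l) X Z := by
  induction h' with
  | refl _ => exact h
  | tail _ hs ih => exact Reach.tail (ih h) hs

lemma Reach.single {X Y : ι → κ → ℕ} (h : Step X Y) : Reach 1 X Y := Reach.tail (Reach.refl X) h

lemma Reach.symm {k : ℕ} {X Y : ι → κ → ℕ} (h : Reach k X Y) : Reach k Y X := by
  induction h with
  | refl X => exact Reach.refl X
  | tail _ hs ih =>
    have := (Reach.single hs.symm).trans ih
    rwa [add_comm] at this

lemma Step.transpose {X Y : ι → κ → ℕ} (h : Step X Y) :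
    Step (fun b a => X a b) (fun b a => Y a b) := by
  obtain ⟨hm, i, i', j, j', hh⟩ := h
  exact ⟨⟨hm.2, hm.1⟩, j, j', i, i', fun b a hab => hh a b (fun hc => hab ⟨hc.2, hc.1⟩)⟩

lemma Reach.transpose {k : ℕ} {X Y : ι → κ → ℕ} (h : Reach k X Y) :
    Reach k (fun b a => X a b) (fun b a => Y a b) := by
  induction h with
  | refl X => exact Reach.refl _
  | tail _ hs ih => exact Reach.tail ih hs.transpose

end general

lemma sum_move {α : Type*} [DecidableEq α] (S : Finset α) {f g : α → ℕ} {x y : α}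
    (hx : x ∈ S) (hy : y ∈ S) (hxy : x ≠ y) (t : ℕ) (h0 : g x = f x + t) (h1 : g y + t = f y)
    (hrest : ∀ b ∈ S, b ≠ x → b ≠ y → g b = f b) : ∑ b ∈ S, g b = ∑ b ∈ S, f b := by
  have hy' : y ∈ S.erase x := mem_erase.2 ⟨hxy.symm, hy⟩
  rw [← add_sum_erase S g hx, ← add_sum_erase S f hx, ← add_sum_erase _ g hy',
    ← add_sum_erase _ f hy']
  have : ∑ b ∈ (S.erase x).erase y, g b = ∑ b ∈ (S.erase x).erase y, f b := by
    apply sum_congr rfl
    intro b hb
    simp only [mem_erase] at hb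
    exact hrest b hb.2.2 hb.2.1 hb.1
  omega

section move
variable {ι κ : Type*} [Fintype ι] [Fintype κ] [DecidableEq ι] [DecidableEq κ]

/-- the elementary move: add `t` at `(i0,j0)` and `(i1,j1)`, subtract `t` at `(i0,j1)`, `(i1,j0)` -/
def move (X : ι → κ → ℕ) (i0 i1 : ι) (j0 j1 : κ) (t : ℕ) : ι → κ → ℕ := fun a b =>
  if a = i0 then (if b = j0 then X a b + t else if b = j1 then X a b - t else X a b)
  else if a = i1 then (if b = j0 then X a b - t else if b = j1 then X a b + t else X a b)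
  else X a b

lemma move_step (X : ι → κ → ℕ) {i0 i1 : ι} {j0 j1 : κ} (hi : i0 ≠ i1) (hj : j0 ≠ j1) {t : ℕ}
    (h1 : t ≤ X i0 j1) (h2 : t ≤ X i1 j0) : Step X (move X i0 i1 j0 j1 t) := by
  refine ⟨⟨fun i => ?_, fun j => ?_⟩, i0, i1, j0, j1, ?_⟩
  · by_cases h : i = i0
    · subst h
      symm
      apply sum_move univ (mem_univ j0) (mem_univ j1) hj t
      · simp [move]
      · simp [move, hj.symm, h1]
      · intro b _ hb0 hb1
        simp [move, hb0, hb1]
    · by_cases h' : i = i1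
      · subst h'
        symm
        apply sum_move univ (mem_univ j1) (mem_univ j0) hj.symm t
        · simp [move, hj.symm, hi.symm]
        · simp [move, hi.symm, h2]
        · intro b _ hb0 hb1
          simp [move, hb0, hb1]
      · apply sum_congr rfl
        intro b _
        simp [move, h, h']
  · by_cases h : j = j0
    · subst h
      symm
      apply sum_move univ (mem_univ i0) (mem_univ i1) hi t
      · simp [move]
      · simp [move, hi.symm, h2]
      · intro a _ ha0 ha1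
        simp [move, ha0, ha1]
    · by_cases h' : j = j1
      · subst h'
        symm
        apply sum_move univ (mem_univ i1) (mem_univ i0) hi.symm t
        · simp [move, hi.symm, hj.symm]
        · simp [move, hj.symm, h1]
        · intro a _ ha0 ha1
          simp [move, ha0, ha1]
      · apply sum_congr rfl
        intro a _
        simp [move, h, h']
  · intro a b hab
    simp only [move]
    by_cases ha0 : a = i0
    · have hb0 : b ≠ j0 := fun hb => hab ⟨Or.inl ha0, Or.inl hb⟩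
      have hb1 : b ≠ j1 := fun hb => hab ⟨Or.inl ha0, Or.inr hb⟩
      simp [ha0, hb0, hb1]
    · by_cases ha1 : a = i1
      · have hb0 : b ≠ j0 := fun hb => hab ⟨Or.inr ha1, Or.inl hb⟩
        have hb1 : b ≠ j1 := fun hb => hab ⟨Or.inr ha1, Or.inr hb⟩
        simp [ha0, ha1, hb0, hb1]
      · simp [ha0, ha1]


lemma move_apply_00 (X : ι → κ → ℕ) (i0 i1 : ι) (j0 j1 : κ) (t : ℕ) :
    move X i0 i1 j0 j1 t i0 j0 = X i0 j0 + t := by simp [move]

lemma move_apply_01 (X : ι → κ → ℕ) (i0 i1 : ι) {j0 j1 : κ} (hj : j0 ≠ j1) (t : ℕ) :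
    move X i0 i1 j0 j1 t i0 j1 = X i0 j1 - t := by simp [move, hj.symm]

lemma move_apply_10 (X : ι → κ → ℕ) {i0 i1 : ι} (hi : i0 ≠ i1) (j0 j1 : κ) (t : ℕ) :
    move X i0 i1 j0 j1 t i1 j0 = X i1 j0 - t := by simp [move, hi.symm]

lemma move_apply_row (X : ι → κ → ℕ) (i0 i1 : ι) (j0 j1 : κ) (t : ℕ) {b : κ}
    (h0 : b ≠ j0) (h1 : b ≠ j1) (a : ι) : move X i0 i1 j0 j1 t a b = X a b := by
  simp [move, h0, h1]

lemma move_apply_col (X : ι → κ → ℕ) (i0 i1 : ι) (j0 j1 : κ) (t : ℕ) {a : ι}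
    (h0 : a ≠ i0) (h1 : a ≠ i1) (b : κ) : move X i0 i1 j0 j1 t a b = X a b := by
  simp [move, h0, h1]

/-- Clearing the pivot row. -/
lemma clearRow (i0 : ι) (j0 : κ) : ∀ (s : ℕ) (A : Finset κ) (B : Finset ι), A.card + B.card = s →
    j0 ∉ A → i0 ∉ B → ∀ X : ι → κ → ℕ, ∑ j ∈ A, X i0 j ≤ ∑ i ∈ B, X i j0 →
    ∃ (X' : ι → κ → ℕ) (k : ℕ) (B' : Finset ι), B' ⊆ B ∧ k + B'.card ≤ A.card + B.card ∧
      Reach k X X' ∧
      (∀ a b, ¬((a = i0 ∨ a ∈ B) ∧ (b = j0 ∨ b ∈ A)) → X' a b = X a b) ∧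
      (∀ j ∈ A, X' i0 j = 0) ∧ (∀ i ∈ B, i ∉ B' → X' i j0 = 0) := by
  intro s
  induction s with
  | zero =>
    intro A B hs _ _ X _
    have hA : A = ∅ := by
      rw [← card_eq_zero]; omega
    subst hA
    exact ⟨X, 0, B, Subset.refl _, by simp, Reach.refl X, fun _ _ _ => rfl, by simp,
      fun i _ hi' => absurd ‹_› hi'⟩
  | succ s ih =>
    intro A B hs hjA hiB X hle
    rcases A.eq_empty_or_nonempty with hA | ⟨j1, hj1⟩
    · subst hA
      exact ⟨X, 0, B, Subset.refl _, by simp, Reach.refl X, fun _ _ _ => rfl, by simp,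
        fun i hi hi' => absurd hi hi'⟩
    rcases B.eq_empty_or_nonempty with hB | ⟨i1, hi1⟩
    · subst hB
      refine ⟨X, 0, ∅, Subset.refl _, by simp, Reach.refl X, fun _ _ _ => rfl, ?_, by simp⟩
      intro j hj
      have h0 : ∑ j ∈ A, X i0 j = 0 := by simpa using hle
      exact (sum_eq_zero_iff.1 h0) j hj
    have hj01 : j0 ≠ j1 := fun h => hjA (h ▸ hj1)
    have hi01 : i0 ≠ i1 := fun h => hiB (h ▸ hi1)
    have hsumA : ∑ j ∈ A, X i0 j = X i0 j1 + ∑ j ∈ A.erase j1, X i0 j :=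
      (add_sum_erase A (fun j => X i0 j) hj1).symm
    have hsumB : ∑ i ∈ B, X i j0 = X i1 j0 + ∑ i ∈ B.erase i1, X i j0 :=
      (add_sum_erase B (fun i => X i j0) hi1).symm
    rcases le_or_gt (X i0 j1) (X i1 j0) with hcase | hcase
    · -- kill the cell (i0, j1)
      set X'' := move X i0 i1 j0 j1 (X i0 j1) with hX''
      have hstep : Step X X'' := move_step X hi01 hj01 le_rfl hcase
      have hrowA : ∑ j ∈ A.erase j1, X'' i0 j = ∑ j ∈ A.erase j1, X i0 j := by
        apply sum_congr rfl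
        intro j hj
        rw [mem_erase] at hj
        exact move_apply_row X i0 i1 j0 j1 _ (fun h => hjA (h ▸ hj.2)) hj.1 i0
      have hcolB : ∑ i ∈ B, X'' i j0 = (X i1 j0 - X i0 j1) + ∑ i ∈ B.erase i1, X i j0 := by
        rw [← add_sum_erase B (fun i => X'' i j0) hi1]
        congr 1
        · exact move_apply_10 X hi01 j0 j1 _
        · apply sum_congr rfl
          intro i hi
          rw [mem_erase] at hi
          exact move_apply_col X i0 i1 j0 j1 _ (fun h => hiB (h ▸ hi.2)) hi.1 j0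
      obtain ⟨X', k, B', hB', hk, hreach, hout, hrow, hcol⟩ :=
        ih (A.erase j1) B (by rw [card_erase_of_mem hj1]; have := card_pos.2 ⟨j1, hj1⟩; omega)
          (fun h => hjA (mem_of_mem_erase h)) hiB X'' (by rw [hrowA, hcolB]; omega)
      have hcardA : (A.erase j1).card + 1 = A.card := by
        rw [card_erase_of_mem hj1]; have := card_pos.2 ⟨j1, hj1⟩; omega
      refine ⟨X', 1 + k, B', hB', by omega, (Reach.single hstep).trans hreach, ?_, ?_, hcol⟩
      · intro a b hab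
        rw [hout a b (fun hc => hab ⟨hc.1, hc.2.imp id mem_of_mem_erase⟩)]
        by_cases ha : a = i0 ∨ a ∈ B
        · have hb0 : b ≠ j0 := fun h => hab ⟨ha, Or.inl h⟩
          have hb1 : b ≠ j1 := fun h => hab ⟨ha, Or.inr (h ▸ hj1)⟩
          exact move_apply_row X i0 i1 j0 j1 _ hb0 hb1 a
        · have ha0 : a ≠ i0 := fun h => ha (Or.inl h)
          have ha1 : a ≠ i1 := fun h => ha (Or.inr (h ▸ hi1))
          exact move_apply_col X i0 i1 j0 j1 _ ha0 ha1 b
      · intro j hj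
        by_cases hjj : j = j1
        · subst hjj
          rw [hout i0 j (fun hc => hc.2.elim (fun h => hj01 h.symm) (fun h => (mem_erase.1 h).1 rfl))]
          rw [hX'', move_apply_01 X i0 i1 hj01]
          simp
        · exact hrow j (mem_erase.2 ⟨hjj, hj⟩)
    · -- kill the cell (i1, j0)
      set X'' := move X i0 i1 j0 j1 (X i1 j0) with hX''
      have hstep : Step X X'' := move_step X hi01 hj01 hcase.le le_rfl
      have hrowA : ∑ j ∈ A, X'' i0 j = (X i0 j1 - X i1 j0) + ∑ j ∈ A.erase j1, X i0 j := by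
        rw [← add_sum_erase A (fun j => X'' i0 j) hj1]
        congr 1
        · exact move_apply_01 X i0 i1 hj01 _
        · apply sum_congr rfl
          intro j hj
          rw [mem_erase] at hj
          exact move_apply_row X i0 i1 j0 j1 _ (fun h => hjA (h ▸ hj.2)) hj.1 i0
      have hcolB : ∑ i ∈ B.erase i1, X'' i j0 = ∑ i ∈ B.erase i1, X i j0 := by
        apply sum_congr rfl
        intro i hi
        rw [mem_erase] at hi
        exact move_apply_col X i0 i1 j0 j1 _ (fun h => hiB (h ▸ hi.2)) hi.1 j0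
      obtain ⟨X', k, B', hB', hk, hreach, hout, hrow, hcol⟩ :=
        ih A (B.erase i1) (by rw [card_erase_of_mem hi1]; have := card_pos.2 ⟨i1, hi1⟩; omega)
          hjA (fun h => hiB (mem_of_mem_erase h)) X'' (by rw [hrowA, hcolB]; omega)
      have hcardB : (B.erase i1).card + 1 = B.card := by
        rw [card_erase_of_mem hi1]; have := card_pos.2 ⟨i1, hi1⟩; omega
      refine ⟨X', 1 + k, B', hB'.trans (erase_subset _ _), by omega,
        (Reach.single hstep).trans hreach, ?_, hrow, ?_⟩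
      · intro a b hab
        rw [hout a b (fun hc => hab ⟨hc.1.imp id mem_of_mem_erase, hc.2⟩)]
        by_cases ha : a = i0 ∨ a ∈ B
        · have hb0 : b ≠ j0 := fun h => hab ⟨ha, Or.inl h⟩
          have hb1 : b ≠ j1 := fun h => hab ⟨ha, Or.inr (h ▸ hj1)⟩
          exact move_apply_row X i0 i1 j0 j1 _ hb0 hb1 a
        · have ha0 : a ≠ i0 := fun h => ha (Or.inl h)
          have ha1 : a ≠ i1 := fun h => ha (Or.inr (h ▸ hi1))
          exact move_apply_col X i0 i1 j0 j1 _ ha0 ha1 b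
      · intro i hi hi'
        by_cases hii : i = i1
        · subst hii
          rw [hout i j0 (fun hc => hc.1.elim (fun h => hi01 h.symm) (fun h => (mem_erase.1 h).1 rfl))]
          rw [hX'', move_apply_10 X hi01]
          simp
        · exact hcol i (mem_erase.2 ⟨hii, hi⟩) hi'


/-- `X` and `Y` agree outside the block `R × C`. -/
def Agree (R : Finset ι) (C : Finset κ) (X Y : ι → κ → ℕ) : Prop :=
  ∀ a b, ¬(a ∈ R ∧ b ∈ C) → X a b = Y a b

lemma rowSum_eq {R : Finset ι} {C : Finset κ} {X Y : ι → κ → ℕ} (hm : SameMargins X Y)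
    (ha : Agree R C X Y) (a : ι) : ∑ j ∈ C, X a j = ∑ j ∈ C, Y a j := by
  have h1 := sum_add_sum_compl C (fun j => X a j)
  have h2 := sum_add_sum_compl C (fun j => Y a j)
  have h3 : ∑ j ∈ Cᶜ, X a j = ∑ j ∈ Cᶜ, Y a j := by
    apply sum_congr rfl
    intro j hj
    exact ha a j (fun hc => (mem_compl.1 hj) hc.2)
  have h4 := hm.1 a
  omega

lemma colSum_eq {R : Finset ι} {C : Finset κ} {X Y : ι → κ → ℕ} (hm : SameMargins X Y)
    (ha : Agree R C X Y) (b : κ) : ∑ i ∈ R, X i b = ∑ i ∈ R, Y i b := by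
  have h1 := sum_add_sum_compl R (fun i => X i b)
  have h2 := sum_add_sum_compl R (fun i => Y i b)
  have h3 : ∑ i ∈ Rᶜ, X i b = ∑ i ∈ Rᶜ, Y i b := by
    apply sum_congr rfl
    intro i hi
    exact ha i b (fun hc => (mem_compl.1 hi) hc.1)
  have h4 := hm.2 b
  omega

/-- packaged form of `clearRow` relative to an active block `R × C` -/
lemma clearRow' {R : Finset ι} {C : Finset κ} {i0 : ι} {j0 : κ} (hi0 : i0 ∈ R) (hj0 : j0 ∈ C)
    (X : ι → κ → ℕ) (hle : ∑ j ∈ C, X i0 j ≤ ∑ i ∈ R, X i j0)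
    {A : Finset κ} {B : Finset ι} (hA : A ⊆ C.erase j0) (hB : B ⊆ R.erase i0)
    (hAz : ∀ j ∈ C.erase j0, j ∉ A → X i0 j = 0) (hBz : ∀ i ∈ R.erase i0, i ∉ B → X i j0 = 0) :
    ∃ (X' : ι → κ → ℕ) (k : ℕ) (B' : Finset ι), B' ⊆ B ∧ k + B'.card ≤ A.card + B.card ∧
      Reach k X X' ∧ Agree R C X' X ∧ (∀ j ∈ C.erase j0, X' i0 j = 0) ∧
      (∀ i ∈ R.erase i0, i ∉ B' → X' i j0 = 0) := by
  have hjA : j0 ∉ A := fun h => (mem_erase.1 (hA h)).1 rfl
  have hiB : i0 ∉ B := fun h => (mem_erase.1 (hB h)).1 rfl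
  have h1 : ∑ j ∈ C, X i0 j = X i0 j0 + ∑ j ∈ A, X i0 j := by
    rw [← add_sum_erase C (fun j => X i0 j) hj0]
    congr 1
    exact (sum_subset hA hAz).symm
  have h2 : ∑ i ∈ R, X i j0 = X i0 j0 + ∑ i ∈ B, X i j0 := by
    rw [← add_sum_erase R (fun i => X i j0) hi0]
    congr 1
    exact (sum_subset hB hBz).symm
  obtain ⟨X', k, B', hB', hk, hreach, hout, hrow, hcol⟩ :=
    clearRow i0 j0 _ A B rfl hjA hiB X (by omega)
  refine ⟨X', k, B', hB', hk, hreach, ?_, ?_, ?_⟩
  · intro a b hab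
    apply hout
    rintro ⟨ha, hb⟩
    apply hab
    constructor
    · rcases ha with rfl | ha
      · exact hi0
      · exact mem_of_mem_erase (hB ha)
    · rcases hb with rfl | hb
      · exact hj0
      · exact mem_of_mem_erase (hA hb)
  · intro j hj
    by_cases hjA' : j ∈ A
    · exact hrow j hjA'
    · rw [hout i0 j (fun hc => hc.2.elim (fun h => (mem_erase.1 hj).1 h) hjA')]
      exact hAz j hj hjA'
  · intro i hi hiB'
    by_cases hiB'' : i ∈ B
    · exact hcol i hiB'' hiB'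
    · rw [hout i j0 (fun hc => hc.1.elim (fun h => (mem_erase.1 hi).1 h) hiB'')]
      exact hBz i hi hiB''

/-- two tables with a cleared pivot row agree on that row -/
lemma agree_of_cleared {R : Finset ι} {C : Finset κ} {i0 : ι} {j0 : κ} (hj0 : j0 ∈ C)
    {X Y : ι → κ → ℕ} (hm : SameMargins X Y) (ha : Agree R C X Y)
    (hX : ∀ j ∈ C.erase j0, X i0 j = 0) (hY : ∀ j ∈ C.erase j0, Y i0 j = 0) :
    Agree (R.erase i0) C X Y := by
  intro a b hab
  by_cases h : a ∈ R ∧ b ∈ C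
  · have ha0 : a = i0 := by
      by_contra hne
      exact hab ⟨mem_erase.2 ⟨hne, h.1⟩, h.2⟩
    subst ha0
    by_cases hb : b = j0
    · subst hb
      have h1 := rowSum_eq hm ha a
      rw [← add_sum_erase C (fun j => X a j) hj0, ← add_sum_erase C (fun j => Y a j) hj0,
        sum_eq_zero hX, sum_eq_zero hY] at h1
      simpa using h1
    · rw [hX b (mem_erase.2 ⟨hb, h.2⟩), hY b (mem_erase.2 ⟨hb, h.2⟩)]
  · exact ha a b h


/-- all tables compatible with `X0` on the active block reach a common table `Z` quickly -/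
def ClaimAt (R : Finset ι) (C : Finset κ) (i0 : ι) (j0 : κ) (X0 : ι → κ → ℕ) : Prop :=
  ∃ Z : ι → κ → ℕ, ∀ X, SameMargins X X0 → Agree R C X X0 →
    ∀ (A : Finset κ) (B : Finset ι), A ⊆ C.erase j0 → B ⊆ R.erase i0 →
      (∀ j ∈ C.erase j0, j ∉ A → X i0 j = 0) → (∀ i ∈ R.erase i0, i ∉ B → X i j0 = 0) →
      ∃ k, k ≤ A.card + B.card + 2 * ((R.card - 1) * (C.card - 1)) ∧ Reach k X Z

end move

lemma ClaimAt.transpose {ι κ : Type*} [Fintype ι] [Fintype κ] [DecidableEq ι] [DecidableEq κ]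
    {R : Finset ι} {C : Finset κ} {i0 : ι} {j0 : κ} {X0 : ι → κ → ℕ}
    (h : ClaimAt C R j0 i0 (fun b a => X0 a b)) : ClaimAt R C i0 j0 X0 := by
  obtain ⟨Z, hZ⟩ := h
  refine ⟨fun a b => Z b a, ?_⟩
  intro X hm ha A B hA hB hAz hBz
  obtain ⟨k, hk, hreach⟩ := hZ (fun b a => X a b) ⟨hm.2, hm.1⟩
    (fun b a hab => ha a b (fun hc => hab ⟨hc.2, hc.1⟩)) B A hB hA hBz hAz
  refine ⟨k, ?_, hreach.transpose⟩
  calc k ≤ B.card + A.card + 2 * ((C.card - 1) * (R.card - 1)) := hk
    _ = A.card + B.card + 2 * ((R.card - 1) * (C.card - 1)) := by ring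

section main
variable {ι κ : Type*} [Fintype ι] [Fintype κ] [DecidableEq ι] [DecidableEq κ]

lemma stepRow {R : Finset ι} {C : Finset κ} {i0 : ι} {j0 : κ} (hi0 : i0 ∈ R) (hj0 : j0 ∈ C)
    (X0 : ι → κ → ℕ)
    (ih : ∀ i1 ∈ R.erase i0, ∀ X1 : ι → κ → ℕ, ClaimAt (R.erase i0) C i1 j0 X1)
    (hle : ∑ j ∈ C, X0 i0 j ≤ ∑ i ∈ R, X0 i j0) : ClaimAt R C i0 j0 X0 := by
  -- cleared version of X0
  obtain ⟨X0', k0, B0', -, -, hreach0, hagree0, hrow0, -⟩ :=
    clearRow' hi0 hj0 X0 hle (Subset.refl _) (Subset.refl _)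
      (fun j hj hj' => absurd hj hj') (fun i hi hi' => absurd hi hi')
  have hm0 : SameMargins X0' X0 := hreach0.sameMargins.symm
  have key : ∀ X, SameMargins X X0 → Agree R C X X0 →
      ∀ (A : Finset κ) (B : Finset ι), A ⊆ C.erase j0 → B ⊆ R.erase i0 →
      (∀ j ∈ C.erase j0, j ∉ A → X i0 j = 0) → (∀ i ∈ R.erase i0, i ∉ B → X i j0 = 0) →
      ∃ (X' : ι → κ → ℕ) (k : ℕ) (B' : Finset ι), B' ⊆ B ∧ k + B'.card ≤ A.card + B.card ∧
        Reach k X X' ∧ SameMargins X' X0' ∧ Agree (R.erase i0) C X' X0' ∧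
        (∀ i ∈ R.erase i0, i ∉ B' → X' i j0 = 0) := by
    intro X hm ha A B hA hB hAz hBz
    have hleX : ∑ j ∈ C, X i0 j ≤ ∑ i ∈ R, X i j0 := by
      rw [rowSum_eq hm ha i0, colSum_eq hm ha j0]; exact hle
    obtain ⟨X', k, B', hB', hk, hreach, hagree, hrow, hcol⟩ :=
      clearRow' hi0 hj0 X hleX hA hB hAz hBz
    have hm' : SameMargins X' X0' := (hreach.sameMargins.symm.trans hm).trans hm0.symm
    have ha' : Agree R C X' X0' := fun a b hab => by
      rw [hagree a b hab, ha a b hab, hagree0 a b hab]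
    exact ⟨X', k, B', hB', hk, hreach, hm', agree_of_cleared hj0 hm' ha' hrow hrow0, hcol⟩
  rcases (R.erase i0).eq_empty_or_nonempty with hR | ⟨i1, hi1⟩
  · refine ⟨X0', ?_⟩
    intro X hm ha A B hA hB hAz hBz
    obtain ⟨X', k, B', hB', hk, hreach, hm', ha', hcol⟩ := key X hm ha A B hA hB hAz hBz
    have hX' : X' = X0' := by
      funext a b
      apply ha'
      rw [hR]
      simp
    subst hX'
    exact ⟨k, by omega, hreach⟩
  · obtain ⟨Z, hZ⟩ := ih i1 hi1 X0'
    refine ⟨Z, ?_⟩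
    intro X hm ha A B hA hB hAz hBz
    obtain ⟨X', k, B', hB', hk, hreach, hm', ha', hcol⟩ := key X hm ha A B hA hB hAz hBz
    obtain ⟨k2, hk2, hreach2⟩ := hZ X' hm' ha' (C.erase j0) (B'.erase i1) (Subset.refl _)
      (by
        intro i hi
        rw [mem_erase] at hi
        exact mem_erase.2 ⟨hi.1, hB (hB' hi.2)⟩)
      (fun j hj hj' => absurd hj hj')
      (by
        intro i hi hi'
        rw [mem_erase] at hi
        apply hcol i hi.2
        intro hc
        exact hi' (mem_erase.2 ⟨hi.1, hc⟩))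
    refine ⟨k + k2, ?_, hreach.trans hreach2⟩
    have hc1 : (C.erase j0).card = C.card - 1 := card_erase_of_mem hj0
    have hc2 : (R.erase i0).card = R.card - 1 := card_erase_of_mem hi0
    have hc3 : (B'.erase i1).card ≤ B'.card := card_le_card (erase_subset _ _)
    have hc4 : 2 ≤ R.card := by
      have : 0 < (R.erase i0).card := card_pos.2 ⟨i1, hi1⟩
      omega
    rw [hc1, hc2] at hk2
    obtain ⟨u, hu⟩ : ∃ u, R.card = u + 2 := ⟨R.card - 2, by omega⟩
    rw [hu] at hk2 ⊢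
    have e1 : u + 2 - 1 - 1 = u := by omega
    have e2 : u + 2 - 1 = u + 1 := by omega
    rw [e1] at hk2
    rw [e2]
    nlinarith

theorem claim_all : ∀ (s : ℕ) (R : Finset ι) (C : Finset κ), R.card + C.card = s →
    ∀ i0 ∈ R, ∀ j0 ∈ C, ∀ X0 : ι → κ → ℕ, ClaimAt R C i0 j0 X0 := by
  intro s
  induction s with
  | zero =>
    intro R C hs i0 hi0
    have : 0 < R.card := card_pos.2 ⟨i0, hi0⟩
    omega
  | succ s ih =>
    intro R C hs i0 hi0 j0 hj0 X0
    rcases le_total (∑ j ∈ C, X0 i0 j) (∑ i ∈ R, X0 i j0) with hle | hle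
    · apply stepRow hi0 hj0 X0 _ hle
      intro i1 hi1 X1
      apply ih (R.erase i0) C _ i1 hi1 j0 hj0 X1
      rw [card_erase_of_mem hi0]
      have : 0 < R.card := card_pos.2 ⟨i0, hi0⟩
      omega
    · apply ClaimAt.transpose
      apply stepRow hj0 hi0 (fun b a => X0 a b) _ hle
      intro j1 hj1 X1
      apply ClaimAt.transpose
      apply ih R (C.erase j0) _ i0 hi0 j1 hj1
      rw [card_erase_of_mem hj0]
      have : 0 < C.card := card_pos.2 ⟨j0, hj0⟩
      omega

/-- any two tables with the same margins are joined by at most `4 m n` block moves -/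
theorem reach_bound (X Y : ι → κ → ℕ) (h : SameMargins X Y) :
    ∃ k, k ≤ 4 * (Fintype.card ι * Fintype.card κ) ∧ Reach k X Y := by
  rcases isEmpty_or_nonempty ι with hι | ⟨⟨i0⟩⟩
  · exact ⟨0, by simp, by
      have : X = Y := by funext a; exact (hι.false a).elim
      subst this; exact Reach.refl X⟩
  rcases isEmpty_or_nonempty κ with hκ | ⟨⟨j0⟩⟩
  · exact ⟨0, by simp, by
      have : X = Y := by funext a b; exact (hκ.false b).elim
      subst this; exact Reach.refl X⟩
  obtain ⟨Z, hZ⟩ := claim_all _ (univ : Finset ι) (univ : Finset κ) rfl i0 (mem_univ _) j0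
    (mem_univ _) X
  obtain ⟨k1, hk1, h1⟩ := hZ X (SameMargins.rfl' X) (fun _ _ _ => rfl) _ _ (Subset.refl _)
    (Subset.refl _) (fun j hj hj' => absurd hj hj') (fun i hi hi' => absurd hi hi')
  obtain ⟨k2, hk2, h2⟩ := hZ Y h.symm (fun a b hab => absurd ⟨mem_univ a, mem_univ b⟩ hab) _ _
    (Subset.refl _) (Subset.refl _) (fun j hj hj' => absurd hj hj') (fun i hi hi' => absurd hi hi')
  refine ⟨k1 + k2, ?_, h1.trans h2.symm⟩
  rw [card_erase_of_mem (mem_univ _), card_erase_of_mem (mem_univ _), card_univ, card_univ]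
    at hk1 hk2
  have hm : 0 < Fintype.card ι := Fintype.card_pos_iff.2 ⟨i0⟩
  have hn : 0 < Fintype.card κ := Fintype.card_pos_iff.2 ⟨j0⟩
  obtain ⟨u, hu⟩ : ∃ u, Fintype.card ι = u + 1 := ⟨Fintype.card ι - 1, by omega⟩
  obtain ⟨v, hv⟩ : ∃ v, Fintype.card κ = v + 1 := ⟨Fintype.card κ - 1, by omega⟩
  rw [hu, hv] at hk1 hk2 ⊢
  simp only [Nat.add_sub_cancel] at hk1 hk2
  nlinarith

end main

end Vale.Agent.Lib.P328
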