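import Mathlib
import Vale.Agent.Lib.P328.Omega

set_option linter.unusedSimpArgs false

open Finset

namespace Vale.Agent.Lib.P328

variable {m n : ℕ}

lemma Omega_finite (r : Fin m → ℕ) (c : Fin n → ℕ) : (Omega r c).Finite := by
  apply (Set.finite_Icc (0 : Fin m → Fin n → ℕ) (fun i _ => r i)).subset
  intro X hX
  refine ⟨fun i j => Nat.zero_le _, fun i j => ?_⟩
  show X i j ≤ r i
  rw [← hX.1 i]
  exact single_le_sum (f := fun j => X i j) (fun _ _ => Nat.zero_le _) (mem_univ j)

/-- add `t` to the cell `(i,j)` -/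
def addCell (i : Fin m) (j : Fin n) (t : ℕ) (Y : Fin m → Fin n → ℕ) : Fin m → Fin n → ℕ :=
  fun a b => Y a b + (if a = i ∧ b = j then t else 0)

lemma addCell_mem {r : Fin m → ℕ} {c : Fin n → ℕ} (i : Fin m) (j : Fin n) (t : ℕ)
    {Y : Fin m → Fin n → ℕ} (hY : Y ∈ Omega r c) :
    addCell i j t Y ∈ Omega (r + Pi.single i t) (c + Pi.single j t) := by
  constructor
  · intro a
    simp only [addCell, sum_add_distrib, hY.1 a, Pi.add_apply]
    congr 1
    by_cases ha : a = i
    · subst ha; simp
    · simp [ha, Pi.single_eq_of_ne ha]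
  · intro b
    simp only [addCell, sum_add_distrib, hY.2 b, Pi.add_apply]
    congr 1
    by_cases hb : b = j
    · subst hb; simp
    · simp [hb, Pi.single_eq_of_ne hb]

lemma addCell_injective (i : Fin m) (j : Fin n) (t : ℕ) : Function.Injective (addCell i j t) := by
  intro Y Y' h
  funext a b
  have := congrFun (congrFun h a) b
  simpa [addCell] using this

lemma image_addCell (r : Fin m → ℕ) (c : Fin n → ℕ) (i : Fin m) (j : Fin n) (t : ℕ) :
    addCell i j t '' Omega r c =
      {X | X ∈ Omega (r + Pi.single i t) (c + Pi.single j t) ∧ t ≤ X i j} := by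
  ext X
  constructor
  · rintro ⟨Y, hY, rfl⟩
    exact ⟨addCell_mem i j t hY, by simp [addCell]⟩
  · rintro ⟨hX, ht⟩
    refine ⟨fun a b => X a b - (if a = i ∧ b = j then t else 0), ?_, ?_⟩
    · have hadd : ∀ a b, X a b = (X a b - (if a = i ∧ b = j then t else 0)) +
          (if a = i ∧ b = j then t else 0) := by
        intro a b
        by_cases h : a = i ∧ b = j
        · obtain ⟨rfl, rfl⟩ := h
          simp [ht]
        · simp [h]
      constructor
      · intro a
        have h1 := hX.1 a
        rw [sum_congr rfl (fun b _ => hadd a b), sum_add_distrib, Pi.add_apply] at h1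
        have h2 : ∑ b, (if a = i ∧ b = j then t else 0) = (Pi.single i t : Fin m → ℕ) a := by
          by_cases ha : a = i
          · subst ha; simp
          · simp [ha, Pi.single_eq_of_ne ha]
        rw [h2] at h1
        exact Nat.add_right_cancel h1
      · intro b
        have h1 := hX.2 b
        rw [sum_congr rfl (fun a _ => hadd a b), sum_add_distrib, Pi.add_apply] at h1
        have h2 : ∑ a, (if a = i ∧ b = j then t else 0) = (Pi.single j t : Fin n → ℕ) b := by
          by_cases hb : b = j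
          · subst hb; simp
          · simp [hb, Pi.single_eq_of_ne hb]
        rw [h2] at h1
        exact Nat.add_right_cancel h1
    · funext a b
      simp only [addCell]
      by_cases h : a = i ∧ b = j
      · obtain ⟨rfl, rfl⟩ := h
        simp [ht]
      · simp [h]

lemma ncard_ge_cell (r : Fin m → ℕ) (c : Fin n → ℕ) (i : Fin m) (j : Fin n) (t : ℕ) :
    {X | X ∈ Omega (r + Pi.single i t) (c + Pi.single j t) ∧ t ≤ X i j}.ncard =
      (Omega r c).ncard := by
  rw [← image_addCell, Set.ncard_image_of_injective _ (addCell_injective i j t)]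


lemma Omega_zero : Omega (0 : Fin m → ℕ) (0 : Fin n → ℕ) = {0} := by
  ext X
  simp only [Omega, Set.mem_ofPred_eq, Set.mem_singleton_iff, Pi.zero_apply]
  constructor
  · rintro ⟨h1, -⟩
    funext i j
    have := (sum_eq_zero_iff.1 (h1 i)) j (mem_univ j)
    simpa using this
  · rintro rfl
    simp

/-- total of a table -/
lemma total_eq {r : Fin m → ℕ} {c : Fin n → ℕ} {X : Fin m → Fin n → ℕ} (hX : X ∈ Omega r c) :
    ∑ i, ∑ j, X i j = ∑ i, r i := sum_congr rfl (fun i _ => hX.1 i)

/-- pigeonhole: some cell is at least the ceiling of the average -/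
lemma exists_big_cell {r : Fin m → ℕ} {c : Fin n → ℕ} {X : Fin m → Fin n → ℕ} (hX : X ∈ Omega r c)
    {t : ℕ} (ht : m * n * (t - 1) < ∑ i, r i) : ∃ i j, t ≤ X i j := by
  by_contra hcon
  push Not at hcon
  have h1 : ∑ i, ∑ j, X i j ≤ ∑ _i : Fin m, ∑ _j : Fin n, (t - 1) := by
    apply sum_le_sum
    intro i _
    apply sum_le_sum
    intro j _
    have := hcon i j
    omega
  rw [total_eq hX] at h1
  simp only [sum_const, card_univ, Fintype.card_fin, smul_eq_mul] at h1
  rw [← mul_assoc] at h1
  omega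

lemma exists_good_cell (hm : 0 < m) (hn : 0 < n) (r : Fin m → ℕ) (c : Fin n → ℕ) {t : ℕ}
    (ht : m * n * (t - 1) < ∑ i, r i) :
    ∃ i j, (Omega r c).ncard ≤ m * n * {X | X ∈ Omega r c ∧ t ≤ X i j}.ncard := by
  by_contra hcon
  push Not at hcon
  have hfin : ∀ p : Fin m × Fin n, {X | X ∈ Omega r c ∧ t ≤ X p.1 p.2}.Finite := fun p =>
    (Omega_finite r c).subset (fun X hX => hX.1)
  have hcover : Omega r c ⊆ ⋃ p ∈ (univ : Finset (Fin m × Fin n)),
      {X | X ∈ Omega r c ∧ t ≤ X p.1 p.2} := by
    intro X hX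
    obtain ⟨i, j, hij⟩ := exists_big_cell hX ht
    simp only [mem_univ, Set.iUnion_true, Set.mem_iUnion]
    exact ⟨(i, j), hX, hij⟩
  have h1 : (Omega r c).ncard ≤ ∑ p : Fin m × Fin n, {X | X ∈ Omega r c ∧ t ≤ X p.1 p.2}.ncard := by
    refine le_trans (Set.ncard_le_ncard hcover ?_) (Finset.set_ncard_biUnion_le _ _)
    exact Set.Finite.biUnion (Finset.finite_toSet _) (fun p _ => hfin p)
  have h2 : ∑ p : Fin m × Fin n, m * n * {X | X ∈ Omega r c ∧ t ≤ X p.1 p.2}.ncard <
      ∑ _p : Fin m × Fin n, (Omega r c).ncard := by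
    apply sum_lt_sum_of_nonempty
    · exact ⟨(⟨0, hm⟩, ⟨0, hn⟩), mem_univ _⟩
    · intro p _
      exact hcon p.1 p.2
  rw [← mul_sum] at h2
  simp only [sum_const, card_univ, Fintype.card_prod, Fintype.card_fin, smul_eq_mul] at h2
  have := Nat.lt_of_mul_lt_mul_left h2
  omega


lemma sub_single_add {k : ℕ} (r : Fin k → ℕ) (i : Fin k) {t : ℕ} (ht : t ≤ r i) :
    r = (fun a => r a - (Pi.single i t : Fin k → ℕ) a) + Pi.single i t := by
  funext a
  simp only [Pi.add_apply]
  by_cases ha : a = i
  · subst ha; simp [ht]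
  · simp [Pi.single_eq_of_ne ha]

lemma sum_add_single {k : ℕ} (r : Fin k → ℕ) (i : Fin k) (t : ℕ) :
    ∑ a, (r + (Pi.single i t : Fin k → ℕ)) a = ∑ a, r a + t := by
  simp [sum_add_distrib]

lemma Omega_nonempty : ∀ (N : ℕ) (r : Fin m → ℕ) (c : Fin n → ℕ), ∑ i, r i = N → ∑ j, c j = N →
    (Omega r c).Nonempty := by
  intro N
  induction N with
  | zero =>
    intro r c hr hc
    have hr0 : r = 0 := by
      funext i; exact (sum_eq_zero_iff.1 hr) i (mem_univ i)
    have hc0 : c = 0 := by
      funext j; exact (sum_eq_zero_iff.1 hc) j (mem_univ j)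
    rw [hr0, hc0, Omega_zero]
    exact Set.singleton_nonempty 0
  | succ N ih =>
    intro r c hr hc
    obtain ⟨i, -, hi⟩ : ∃ i ∈ (univ : Finset (Fin m)), r i ≠ 0 := by
      by_contra hcon
      push Not at hcon
      rw [sum_eq_zero hcon] at hr
      omega
    obtain ⟨j, -, hj⟩ : ∃ j ∈ (univ : Finset (Fin n)), c j ≠ 0 := by
      by_contra hcon
      push Not at hcon
      rw [sum_eq_zero hcon] at hc
      omega
    have hr' := sub_single_add r i (t := 1) (by omega)
    have hc' := sub_single_add c j (t := 1) (by omega)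
    set r' := fun a => r a - (Pi.single i 1 : Fin m → ℕ) a
    set c' := fun b => c b - (Pi.single j 1 : Fin n → ℕ) b
    have h1 : ∑ a, r' a = N := by
      have := sum_add_single r' i 1
      rw [← hr', hr] at this
      omega
    have h2 : ∑ b, c' b = N := by
      have := sum_add_single c' j 1
      rw [← hc', hc] at this
      omega
    obtain ⟨Y, hY⟩ := ih r' c' h1 h2
    rw [hr', hc']
    exact ⟨_, addCell_mem i j 1 hY⟩

/-- one step of the self-reduction -/
lemma chain_step (hm : 0 < m) (hn : 0 < n) {N : ℕ} (hN : 0 < N) (r : Fin m → ℕ) (c : Fin n → ℕ)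
    (hr : ∑ i, r i = N) (hc : ∑ j, c j = N) :
    ∃ (i : Fin m) (j : Fin n) (t : ℕ) (r' : Fin m → ℕ) (c' : Fin n → ℕ),
      r = r' + Pi.single i t ∧ c = c' + Pi.single j t ∧ 1 ≤ t ∧ N ≤ m * n * t ∧
      ∑ a, r' a + t = N ∧ ∑ b, c' b + t = N ∧
      {X | X ∈ Omega r c ∧ t ≤ X i j}.ncard = (Omega r' c').ncard ∧
      (Omega r c).ncard ≤ m * n * (Omega r' c').ncard := by
  set K := m * n with hK
  have hKpos : 0 < K := Nat.mul_pos hm hn
  set t := (N + K - 1) / K with ht
  have ht1 : 1 ≤ t := by
    rw [ht, Nat.le_div_iff_mul_le hKpos]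
    omega
  have hKt : K * t ≤ N + K - 1 := Nat.mul_div_le _ _
  have hNt : N ≤ K * t := by
    have := Nat.lt_mul_div_succ (N + K - 1) hKpos
    rw [← ht] at this
    have e : K * (t + 1) = K * t + K := by ring
    omega
  have hlt : K * (t - 1) < ∑ i, r i := by
    rw [hr]
    obtain ⟨u, hu⟩ : ∃ u, t = u + 1 := ⟨t - 1, by omega⟩
    rw [hu] at hKt ⊢
    simp only [Nat.add_sub_cancel]
    have e : K * (u + 1) = K * u + K := by ring
    omega
  obtain ⟨i, j, hij⟩ := exists_good_cell hm hn r c hlt
  have hpos : 0 < (Omega r c).ncard :=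
    (Set.ncard_pos (Omega_finite r c)).2 (Omega_nonempty N r c hr hc)
  have hApos : 0 < {X | X ∈ Omega r c ∧ t ≤ X i j}.ncard := by
    by_contra h0
    have : {X | X ∈ Omega r c ∧ t ≤ X i j}.ncard = 0 := by omega
    rw [this] at hij
    omega
  obtain ⟨X, hX, hXt⟩ := (Set.ncard_pos ((Omega_finite r c).subset (fun X hX => hX.1))).1 hApos
  have hri : t ≤ r i := by
    rw [← hX.1 i]
    exact hXt.trans (single_le_sum (f := fun b => X i b) (fun _ _ => Nat.zero_le _) (mem_univ j))
  have hcj : t ≤ c j := by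
    rw [← hX.2 j]
    exact hXt.trans (single_le_sum (f := fun a => X a j) (fun _ _ => Nat.zero_le _) (mem_univ i))
  have hr' := sub_single_add r i hri
  have hc' := sub_single_add c j hcj
  set r' := fun a => r a - (Pi.single i t : Fin m → ℕ) a
  set c' := fun b => c b - (Pi.single j t : Fin n → ℕ) b
  have hcard : {X | X ∈ Omega r c ∧ t ≤ X i j}.ncard = (Omega r' c').ncard := by
    rw [← ncard_ge_cell r' c' i j t, ← hr', ← hc']
  refine ⟨i, j, t, r', c', hr', hc', ht1, hNt, ?_, ?_, hcard, ?_⟩
  · have := sum_add_single r' i t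
    rw [← hr', hr] at this
    omega
  · have := sum_add_single c' j t
    rw [← hc', hc] at this
    omega
  · rw [← hcard]; exact hij


theorem chain (hm : 0 < m) (hn : 0 < n) : ∀ (N : ℕ) (r : Fin m → ℕ) (c : Fin n → ℕ),
    ∑ i, r i = N → ∑ j, c j = N →
    ∃ (S : ℕ) (R : ℕ → Fin m → ℕ) (C : ℕ → Fin n → ℕ),
      (N = 0 → S = 0) ∧ (S : ℝ) ≤ 1 + (m * n : ℝ) * Real.log N ∧
      R 0 = r ∧ C 0 = c ∧ R S = 0 ∧ C S = 0 ∧
      ∀ s < S, ∃ (i : Fin m) (j : Fin n) (t : ℕ),
        R s = R (s + 1) + Pi.single i t ∧ C s = C (s + 1) + Pi.single j t ∧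
        {X | X ∈ Omega (R s) (C s) ∧ t ≤ X i j}.ncard = (Omega (R (s + 1)) (C (s + 1))).ncard ∧
        (Omega (R s) (C s)).ncard ≤ m * n * (Omega (R (s + 1)) (C (s + 1))).ncard := by
  intro N
  induction N using Nat.strong_induction_on with
  | _ N ih =>
    intro r c hr hc
    rcases Nat.eq_zero_or_pos N with hN0 | hNpos
    · subst hN0
      have hr0 : r = 0 := by
        funext i; exact (sum_eq_zero_iff.1 hr) i (mem_univ i)
      have hc0 : c = 0 := by
        funext j; exact (sum_eq_zero_iff.1 hc) j (mem_univ j)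
      refine ⟨0, fun _ => 0, fun _ => 0, fun _ => rfl, by simp, hr0.symm, hc0.symm, rfl, rfl, ?_⟩
      intro s hs
      omega
    · obtain ⟨i, j, t, r', c', hr', hc', ht1, hNt, hsr, hsc, hcard, hle⟩ :=
        chain_step hm hn hNpos r c hr hc
      obtain ⟨S', R', C', hS0, hSb, hR0, hC0, hRS, hCS, hstep⟩ :=
        ih (N - t) (by omega) r' c' (by omega) (by omega)
      refine ⟨S' + 1, fun s => Nat.casesOn s r R', fun s => Nat.casesOn s c C',
        fun h => by omega, ?_, rfl, rfl, hRS, hCS, ?_⟩
      · -- the bound on the length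
        have hNreal : (0 : ℝ) < N := by exact_mod_cast hNpos
        have hlogN : 0 ≤ Real.log N := Real.log_natCast_nonneg N
        have hK : (0 : ℝ) ≤ (m * n : ℝ) := by positivity
        rcases Nat.eq_zero_or_pos (N - t) with h0 | hpos
        · rw [hS0 h0]
          push_cast
          nlinarith [mul_nonneg hK hlogN]
        · have hN' : (0 : ℝ) < ((N - t : ℕ) : ℝ) := by exact_mod_cast hpos
          have hcast : ((N - t : ℕ) : ℝ) = (N : ℝ) - t := by
            rw [Nat.cast_sub (by omega)]
          have h1 : Real.log ((N - t : ℕ) : ℝ) ≤ Real.log N - t / N := by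
            have h2 := Real.log_le_sub_one_of_pos (x := ((N - t : ℕ) : ℝ) / N) (by positivity)
            rw [Real.log_div hN'.ne' hNreal.ne', hcast] at h2
            have h3 : ((N : ℝ) - t) / N - 1 = -(t / N) := by field_simp; ring
            rw [hcast]
            linarith
          have h4 : (1 : ℝ) ≤ (m * n : ℝ) * (t / N) := by
            rw [← mul_div_assoc, le_div_iff₀ hNreal, one_mul]
            exact_mod_cast hNt
          have h5 : (m * n : ℝ) * Real.log ((N - t : ℕ) : ℝ) ≤
              (m * n : ℝ) * (Real.log N - t / N) := mul_le_mul_of_nonneg_left h1 hK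
          push_cast
          nlinarith
      · intro s hs
        rcases s with _ | s
        · refine ⟨i, j, t, ?_, ?_, ?_, ?_⟩
          · show r = R' 0 + Pi.single i t
            rw [hR0]; exact hr'
          · show c = C' 0 + Pi.single j t
            rw [hC0]; exact hc'
          · show {X | X ∈ Omega r c ∧ t ≤ X i j}.ncard = (Omega (R' 0) (C' 0)).ncard
            rw [hR0, hC0]; exact hcard
          · show (Omega r c).ncard ≤ m * n * (Omega (R' 0) (C' 0)).ncard
            rw [hR0, hC0]; exact hle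
        · exact hstep s (by omega)

end Vale.Agent.Lib.P328
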