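import Vale.Agent.Lib.P328.RC.Defs

/-!
# P328: explicit description of one step of the `2 × 2` heat-bath chain, and existence of tables
-/

namespace P328Step

open P335 P328RC Finset

variable {ι κ : Type*} [Fintype ι] [Fintype κ] [DecidableEq ι] [DecidableEq κ]

/-- the alternating sign pattern of the block with rows `b` and columns `b'` -/
def sgn (b : ι × ι) (b' : κ × κ) (i : ι) (j : κ) : ℤ :=
  if (i = b.1 ∧ j = b'.1) ∨ (i = b.2 ∧ j = b'.2) then 1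
  else if (i = b.1 ∧ j = b'.2) ∨ (i = b.2 ∧ j = b'.1) then -1 else 0

omit [Fintype ι] [Fintype κ] in
theorem sgn_off {b : ι × ι} {b' : κ × κ} {i : ι} {j : κ}
    (h : ¬((i = b.1 ∨ i = b.2) ∧ (j = b'.1 ∨ j = b'.2))) : sgn b b' i j = 0 := by
  unfold sgn
  rw [if_neg, if_neg]
  · rintro (⟨h1, h2⟩ | ⟨h1, h2⟩)
    · exact h ⟨Or.inl h1, Or.inr h2⟩
    · exact h ⟨Or.inr h1, Or.inl h2⟩
  · rintro (⟨h1, h2⟩ | ⟨h1, h2⟩)
    · exact h ⟨Or.inl h1, Or.inl h2⟩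
    · exact h ⟨Or.inr h1, Or.inr h2⟩

omit [Fintype ι] [Fintype κ] in
theorem sgn_11 (b : ι × ι) (b' : κ × κ) : sgn b b' b.1 b'.1 = 1 := by
  unfold sgn; rw [if_pos (Or.inl ⟨rfl, rfl⟩)]

omit [Fintype ι] [Fintype κ] in
theorem sgn_22 (b : ι × ι) (b' : κ × κ) : sgn b b' b.2 b'.2 = 1 := by
  unfold sgn; rw [if_pos (Or.inr ⟨rfl, rfl⟩)]

omit [Fintype ι] [Fintype κ] in
theorem sgn_12 {b : ι × ι} {b' : κ × κ} (hb : b.1 ≠ b.2) (hb' : b'.1 ≠ b'.2) :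
    sgn b b' b.1 b'.2 = -1 := by
  unfold sgn
  rw [if_neg, if_pos (Or.inl ⟨rfl, rfl⟩)]
  rintro (⟨_, h2⟩ | ⟨h1, _⟩)
  · exact hb' h2.symm
  · exact hb h1

omit [Fintype ι] [Fintype κ] in
theorem sgn_21 {b : ι × ι} {b' : κ × κ} (hb : b.1 ≠ b.2) (hb' : b'.1 ≠ b'.2) :
    sgn b b' b.2 b'.1 = -1 := by
  unfold sgn
  rw [if_neg, if_pos (Or.inr ⟨rfl, rfl⟩)]
  rintro (⟨h1, _⟩ | ⟨_, h2⟩)
  · exact hb h1.symm
  · exact hb' h2

omit [Fintype ι] in
theorem sgn_row {b : ι × ι} {b' : κ × κ} (hb : b.1 ≠ b.2) (hb' : b'.1 ≠ b'.2) (i : ι) :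
    ∑ j, sgn b b' i j = 0 := by
  rw [Finset.sum_eq_add b'.1 b'.2 hb'
    (fun j _ hj => sgn_off (fun h => h.2.elim hj.1 hj.2))
    (fun h => absurd (mem_univ _) h) (fun h => absurd (mem_univ _) h)]
  by_cases h1 : i = b.1
  · rw [h1, sgn_11, sgn_12 hb hb']; norm_num
  · by_cases h2 : i = b.2
    · rw [h2, sgn_21 hb hb', sgn_22]; norm_num
    · rw [sgn_off (fun h => h.1.elim h1 h2), sgn_off (fun h => h.1.elim h1 h2)]; norm_num

omit [Fintype κ] in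
theorem sgn_col {b : ι × ι} {b' : κ × κ} (hb : b.1 ≠ b.2) (hb' : b'.1 ≠ b'.2) (j : κ) :
    ∑ i, sgn b b' i j = 0 := by
  rw [Finset.sum_eq_add b.1 b.2 hb
    (fun i _ hi => sgn_off (fun h => h.1.elim hi.1 hi.2))
    (fun h => absurd (mem_univ _) h) (fun h => absurd (mem_univ _) h)]
  by_cases h1 : j = b'.1
  · rw [h1, sgn_11, sgn_21 hb hb']; norm_num
  · by_cases h2 : j = b'.2
    · rw [h2, sgn_12 hb hb', sgn_22]; norm_num
    · rw [sgn_off (fun h => h.2.elim h1 h2), sgn_off (fun h => h.2.elim h1 h2)]; norm_num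

variable {r : ι → ℕ} {c : κ → ℕ}

/-- two tables which agree outside the block differ by a multiple of the sign pattern -/
theorem shift_of_RX {b : ι × ι} {b' : κ × κ} (hb : b.1 ≠ b.2) (hb' : b'.1 ≠ b'.2)
    {X Y : Tab r c} (h : RX b b' X Y) (i : ι) (j : κ) :
    (Y.1 i j : ℤ) = X.1 i j + ((Y.1 b.1 b'.1 : ℤ) - X.1 b.1 b'.1) * sgn b b' i j := by
  obtain ⟨D, hD⟩ : ∃ D : ι → κ → ℤ, ∀ i j, D i j = (Y.1 i j : ℤ) - X.1 i j := ⟨_, fun _ _ => rfl⟩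
  have hoff : ∀ i j, ¬((i = b.1 ∨ i = b.2) ∧ (j = b'.1 ∨ j = b'.2)) → D i j = 0 := by
    intro i j hij
    rw [hD, h i j hij, sub_self]
  have hrow : ∀ i, ∑ j, D i j = 0 := by
    intro i
    simp only [hD, Finset.sum_sub_distrib]
    have h1 := Y.2.1 i
    have h2 := X.2.1 i
    have h1' : ∑ j, (Y.1 i j : ℤ) = r i := by exact_mod_cast h1
    have h2' : ∑ j, (X.1 i j : ℤ) = r i := by exact_mod_cast h2
    rw [h1', h2', sub_self]
  have hcol : ∀ j, ∑ i, D i j = 0 := by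
    intro j
    simp only [hD, Finset.sum_sub_distrib]
    have h1 := Y.2.2 j
    have h2 := X.2.2 j
    have h1' : ∑ i, (Y.1 i j : ℤ) = c j := by exact_mod_cast h1
    have h2' : ∑ i, (X.1 i j : ℤ) = c j := by exact_mod_cast h2
    rw [h1', h2', sub_self]
  have r1 : D b.1 b'.1 + D b.1 b'.2 = 0 := by
    rw [← hrow b.1, Finset.sum_eq_add b'.1 b'.2 hb'
      (fun j _ hj => hoff _ _ (fun h => h.2.elim hj.1 hj.2))
      (fun h => absurd (mem_univ _) h) (fun h => absurd (mem_univ _) h)]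
  have r2 : D b.2 b'.1 + D b.2 b'.2 = 0 := by
    rw [← hrow b.2, Finset.sum_eq_add b'.1 b'.2 hb'
      (fun j _ hj => hoff _ _ (fun h => h.2.elim hj.1 hj.2))
      (fun h => absurd (mem_univ _) h) (fun h => absurd (mem_univ _) h)]
  have c1 : D b.1 b'.1 + D b.2 b'.1 = 0 := by
    rw [← hcol b'.1, Finset.sum_eq_add b.1 b.2 hb
      (fun i _ hi => hoff _ _ (fun h => h.1.elim hi.1 hi.2))
      (fun h => absurd (mem_univ _) h) (fun h => absurd (mem_univ _) h)]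
  have key : D i j = D b.1 b'.1 * sgn b b' i j := by
    by_cases hin : (i = b.1 ∨ i = b.2) ∧ (j = b'.1 ∨ j = b'.2)
    · rcases hin with ⟨hi | hi, hj | hj⟩ <;> rw [hi, hj]
      · rw [sgn_11, mul_one]
      · rw [sgn_12 hb hb']; linarith
      · rw [sgn_21 hb hb']; linarith
      · rw [sgn_22]; linarith
    · rw [hoff i j hin, sgn_off hin, mul_zero]
  rw [hD, hD] at key
  linarith

/-- the shift parameter lies in the explicit interval -/
theorem shift_mem {b : ι × ι} {b' : κ × κ} (hb : b.1 ≠ b.2) (hb' : b'.1 ≠ b'.2)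
    {X Y : Tab r c} (h : RX b b' X Y) :
    -((min (X.1 b.1 b'.1) (X.1 b.2 b'.2) : ℕ) : ℤ) ≤ (Y.1 b.1 b'.1 : ℤ) - X.1 b.1 b'.1 ∧
      (Y.1 b.1 b'.1 : ℤ) - X.1 b.1 b'.1 ≤ ((min (X.1 b.1 b'.2) (X.1 b.2 b'.1) : ℕ) : ℤ) := by
  have h12 := shift_of_RX hb hb' h b.1 b'.2
  have h21 := shift_of_RX hb hb' h b.2 b'.1
  have h22 := shift_of_RX hb hb' h b.2 b'.2
  rw [sgn_12 hb hb'] at h12
  rw [sgn_21 hb hb'] at h21
  rw [sgn_22] at h22
  have p11 : (0 : ℤ) ≤ Y.1 b.1 b'.1 := Int.natCast_nonneg _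
  have p12 : (0 : ℤ) ≤ Y.1 b.1 b'.2 := Int.natCast_nonneg _
  have p21 : (0 : ℤ) ≤ Y.1 b.2 b'.1 := Int.natCast_nonneg _
  have p22 : (0 : ℤ) ≤ Y.1 b.2 b'.2 := Int.natCast_nonneg _
  constructor
  · rcases min_choice (X.1 b.1 b'.1) (X.1 b.2 b'.2) with hm | hm <;> rw [hm] <;> linarith
  · rcases min_choice (X.1 b.1 b'.2) (X.1 b.2 b'.1) with hm | hm <;> rw [hm] <;> linarith

/-- every shift in the interval is realised by a table -/
theorem exists_shift {b : ι × ι} {b' : κ × κ} (hb : b.1 ≠ b.2) (hb' : b'.1 ≠ b'.2)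
    (X : Tab r c) (k : ℤ)
    (h1 : -((min (X.1 b.1 b'.1) (X.1 b.2 b'.2) : ℕ) : ℤ) ≤ k)
    (h2 : k ≤ ((min (X.1 b.1 b'.2) (X.1 b.2 b'.1) : ℕ) : ℤ)) :
    ∃ Y : Tab r c, RX b b' X Y ∧ ∀ i j, (Y.1 i j : ℤ) = X.1 i j + k * sgn b b' i j := by
  have a11 : ((min (X.1 b.1 b'.1) (X.1 b.2 b'.2) : ℕ) : ℤ) ≤ X.1 b.1 b'.1 := by
    exact_mod_cast min_le_left _ _
  have a22 : ((min (X.1 b.1 b'.1) (X.1 b.2 b'.2) : ℕ) : ℤ) ≤ X.1 b.2 b'.2 := by
    exact_mod_cast min_le_right _ _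
  have a12 : ((min (X.1 b.1 b'.2) (X.1 b.2 b'.1) : ℕ) : ℤ) ≤ X.1 b.1 b'.2 := by
    exact_mod_cast min_le_left _ _
  have a21 : ((min (X.1 b.1 b'.2) (X.1 b.2 b'.1) : ℕ) : ℤ) ≤ X.1 b.2 b'.1 := by
    exact_mod_cast min_le_right _ _
  have hnn : ∀ i j, 0 ≤ (X.1 i j : ℤ) + k * sgn b b' i j := by
    intro i j
    by_cases hin : (i = b.1 ∨ i = b.2) ∧ (j = b'.1 ∨ j = b'.2)
    · rcases hin with ⟨hi | hi, hj | hj⟩ <;> rw [hi, hj]
      · rw [sgn_11]; linarith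
      · rw [sgn_12 hb hb']; linarith
      · rw [sgn_21 hb hb']; linarith
      · rw [sgn_22]; linarith
    · rw [sgn_off hin, mul_zero, add_zero]; exact Int.natCast_nonneg _
  have hval : ∀ i j, ((((X.1 i j : ℤ) + k * sgn b b' i j).toNat : ℕ) : ℤ)
      = (X.1 i j : ℤ) + k * sgn b b' i j := fun i j => Int.toNat_of_nonneg (hnn i j)
  refine ⟨⟨fun i j => ((X.1 i j : ℤ) + k * sgn b b' i j).toNat, ?_, ?_⟩, ?_, hval⟩
  · intro i
    have : ((∑ j, ((X.1 i j : ℤ) + k * sgn b b' i j).toNat : ℕ) : ℤ) = r i := by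
      push_cast
      simp only [hval]
      rw [Finset.sum_add_distrib, ← Finset.mul_sum, sgn_row hb hb', mul_zero, add_zero]
      exact_mod_cast X.2.1 i
    exact_mod_cast this
  · intro j
    have : ((∑ i, ((X.1 i j : ℤ) + k * sgn b b' i j).toNat : ℕ) : ℤ) = c j := by
      push_cast
      simp only [hval]
      rw [Finset.sum_add_distrib, ← Finset.mul_sum, sgn_col hb hb', mul_zero, add_zero]
      exact_mod_cast X.2.2 j
    exact_mod_cast this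
  · intro i j hij
    show X.1 i j = ((X.1 i j : ℤ) + k * sgn b b' i j).toNat
    rw [sgn_off hij, mul_zero, add_zero, Int.toNat_natCast]

/-- the number of tables which agree with `X` outside the block -/
theorem card_cls_RX {b : ι × ι} {b' : κ × κ} (hb : b.1 ≠ b.2) (hb' : b'.1 ≠ b'.2) (X : Tab r c) :
    (cls (RX b b') X).card
      = min (X.1 b.1 b'.1) (X.1 b.2 b'.2) + min (X.1 b.1 b'.2) (X.1 b.2 b'.1) + 1 := by
  have hc : (cls (RX b b') X).card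
      = (Finset.Icc (-((min (X.1 b.1 b'.1) (X.1 b.2 b'.2) : ℕ) : ℤ))
          ((min (X.1 b.1 b'.2) (X.1 b.2 b'.1) : ℕ) : ℤ)).card := by
    refine Finset.card_bij (fun Y _ => (Y.1 b.1 b'.1 : ℤ) - X.1 b.1 b'.1) ?_ ?_ ?_
    · intro Y hY
      rw [Finset.mem_Icc]
      exact shift_mem hb hb' (mem_cls.1 hY)
    · intro Y hY Y' hY' hk
      apply Tab.ext
      intro i j
      have e1 := shift_of_RX hb hb' (mem_cls.1 hY) i j
      have e2 := shift_of_RX hb hb' (mem_cls.1 hY') i j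
      have hk' : (Y.1 b.1 b'.1 : ℤ) - X.1 b.1 b'.1 = (Y'.1 b.1 b'.1 : ℤ) - X.1 b.1 b'.1 := hk
      rw [hk'] at e1
      have : (Y.1 i j : ℤ) = Y'.1 i j := by rw [e1, e2]
      exact_mod_cast this
    · intro k hk
      rw [Finset.mem_Icc] at hk
      obtain ⟨Y, hY, hv⟩ := exists_shift hb hb' X k hk.1 hk.2
      refine ⟨Y, mem_cls.2 hY, ?_⟩
      rw [hv, sgn_11]
      ring
  rw [hc, Int.card_Icc]
  omega

end P328Step
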