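import Vale.Agent.Lib.P328.RC.Defs

/-!
# P328: tables exist as soon as the two margins have the same total
-/

namespace P328Step

open P335 P328RC Finset

variable {ι κ : Type*} [Fintype ι] [Fintype κ] [DecidableEq ι] [DecidableEq κ]

omit [DecidableEq ι] in
theorem exists_pos_of_sum {r : ι → ℕ} {N : ℕ} (h : ∑ i, r i = N + 1) : ∃ i, 0 < r i := by
  by_contra hc
  push Not at hc
  have : ∑ i, r i = 0 := Finset.sum_eq_zero (fun i _ => Nat.le_zero.1 (hc i))
  omega

theorem sum_update_pred {r : ι → ℕ} {N : ℕ} (h : ∑ i, r i = N + 1) {i : ι} (hi : 0 < r i) :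
    ∑ a, Function.update r i (r i - 1) a = N := by
  have h1 : ∑ a, Function.update r i (r i - 1) a + 1 = ∑ a, r a := by
    rw [← Finset.add_sum_erase univ _ (mem_univ i), ← Finset.add_sum_erase univ r (mem_univ i),
      Function.update_self]
    have : ∑ a ∈ univ.erase i, Function.update r i (r i - 1) a = ∑ a ∈ univ.erase i, r a :=
      Finset.sum_congr rfl (fun a ha => Function.update_of_ne (Finset.ne_of_mem_erase ha) _ _)
    rw [this]
    omega
  omega

theorem tab_nonempty_aux : ∀ (N : ℕ) (r : ι → ℕ) (c : κ → ℕ), ∑ i, r i = N → ∑ j, c j = N →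
    Nonempty (Tab r c) := by
  intro N
  induction N with
  | zero =>
    intro r c hr hc
    have hr0 : ∀ i, r i = 0 := fun i => (Finset.sum_eq_zero_iff.1 hr) i (mem_univ i)
    have hc0 : ∀ j, c j = 0 := fun j => (Finset.sum_eq_zero_iff.1 hc) j (mem_univ j)
    exact ⟨⟨fun _ _ => 0, fun i => by simp [hr0 i], fun j => by simp [hc0 j]⟩⟩
  | succ N ih =>
    intro r c hr hc
    obtain ⟨i, hi⟩ := exists_pos_of_sum hr
    obtain ⟨j, hj⟩ := exists_pos_of_sum hc
    obtain ⟨X⟩ := ih (Function.update r i (r i - 1)) (Function.update c j (c j - 1))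
      (sum_update_pred hr hi) (sum_update_pred hc hj)
    refine ⟨⟨fun a b => X.1 a b + (if a = i ∧ b = j then 1 else 0), ?_, ?_⟩⟩
    · intro a
      rw [Finset.sum_add_distrib, X.2.1 a]
      by_cases ha : a = i
      · subst ha
        rw [Function.update_self]
        have : ∑ b, (if a = a ∧ b = j then 1 else 0) = 1 := by simp
        rw [this]
        omega
      · rw [Function.update_of_ne ha]
        have : ∑ b, (if a = i ∧ b = j then 1 else 0) = 0 := by simp [ha]
        rw [this, add_zero]
    · intro b
      rw [Finset.sum_add_distrib, X.2.2 b]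
      by_cases hb : b = j
      · subst hb
        rw [Function.update_self]
        have : ∑ a, (if a = i ∧ b = b then 1 else 0) = 1 := by simp
        rw [this]
        omega
      · rw [Function.update_of_ne hb]
        have : ∑ a, (if a = i ∧ b = j then 1 else 0) = 0 := by simp [hb]
        rw [this, add_zero]

/-- tables exist as soon as the margins have the same total -/
theorem tab_nonempty (r : ι → ℕ) (c : κ → ℕ) (h : ∑ i, r i = ∑ j, c j) : Nonempty (Tab r c) :=
  tab_nonempty_aux _ r c rfl h.symm

end P328Step
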